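import Mathlib

/-!
P333, ratio 2: the dual subgradient method (section 4 of the proof), in abstract form.
-/

namespace Vale.Agent.P333.H212

open Finset

variable {V κ : Type*} [Fintype V] [DecidableEq κ]

/-- Total gain of the permutation `Y`. -/
def gain (g : V → V → ℕ) (Y : Equiv.Perm V) : ℕ := ∑ v, g v (Y v)

/-- Number of arcs of `Y` which leave the class `D`. -/
def fl (lab : V → κ) (D : κ) (Y : Equiv.Perm V) : ℕ :=
  (univ.filter fun v => lab v = D ∧ lab (Y v) ≠ D).card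

/-- The weights with multipliers. -/
def wt (lab : V → κ) (big : Finset κ) (g : V → V → ℕ) (R : ℕ) (mu : κ → ℕ) (v u : V) : ℕ :=
  R * g v u + if lab v ∈ big ∧ lab u ≠ lab v then mu (lab v) else 0

/-- `T` rounds of the subgradient method. -/
structure Sub (lab : V → κ) (big : Finset κ) (g : V → V → ℕ) (R T : ℕ) (mu : ℕ → κ → ℕ)
    (Y : ℕ → Equiv.Perm V) : Prop where
  zero : ∀ D ∈ big, mu 0 D = 0
  step : ∀ t < T, ∀ D ∈ big, mu (t + 1) D = mu t D + 1 - fl lab D (Y t)
  opt : ∀ t < T, ∀ Z : Equiv.Perm V,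
    ∑ v, wt lab big g R (mu t) v (Z v) ≤ ∑ v, wt lab big g R (mu t) v (Y t v)

theorem sum_wt (lab : V → κ) (big : Finset κ) (g : V → V → ℕ) (R : ℕ) (mu : κ → ℕ)
    (Z : Equiv.Perm V) :
    ∑ v, wt lab big g R mu v (Z v) = R * gain g Z + ∑ D ∈ big, mu D * fl lab D Z := by
  classical
  simp only [wt, gain, Finset.sum_add_distrib, Finset.mul_sum]
  congr 1
  have h : ∀ v : V, (if lab v ∈ big ∧ lab (Z v) ≠ lab v then mu (lab v) else 0)
      = ∑ D ∈ big, if lab v = D ∧ lab (Z v) ≠ D then mu D else 0 := by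
    intro v
    by_cases hv : lab v ∈ big
    · rw [Finset.sum_eq_single_of_mem (lab v) hv]
      · by_cases h2 : lab (Z v) ≠ lab v
        · rw [if_pos ⟨hv, h2⟩, if_pos ⟨rfl, h2⟩]
        · rw [if_neg (fun h => h2 h.2), if_neg (fun h => h2 h.2)]
      · intro D _ hD
        rw [if_neg (fun h => hD h.1.symm)]
    · rw [if_neg (fun h => hv h.1)]
      symm
      apply Finset.sum_eq_zero
      intro D hD
      rw [if_neg]
      rintro ⟨h, -⟩
      exact hv (h ▸ hD)
  rw [Finset.sum_congr rfl (fun v _ => h v), Finset.sum_comm]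
  refine Finset.sum_congr rfl (fun D _ => ?_)
  rw [fl, ← Finset.sum_filter, Finset.sum_const, smul_eq_mul, mul_comm]

theorem fl_le (lab : V → κ) (D : κ) (Y : Equiv.Perm V) :
    fl lab D Y ≤ (univ.filter fun v => lab v = D).card := by
  apply Finset.card_le_card
  intro v hv
  simp only [Finset.mem_filter, Finset.mem_univ, true_and] at hv ⊢
  exact hv.1

theorem sum_classes (lab : V → κ) (big : Finset κ) :
    ∑ D ∈ big, (univ.filter fun v => lab v = D).card ≤ Fintype.card V := by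
  classical
  rw [← Finset.card_biUnion]
  · exact Finset.card_le_univ _
  · intro D _ E _ hDE
    rw [Function.onFun, Finset.disjoint_left]
    intro v hv hv'
    simp only [Finset.mem_filter, Finset.mem_univ, true_and] at hv hv'
    exact hDE (hv.symm.trans hv')

/-- The sum of the squares of the residuals. -/
theorem sum_sq (lab : V → κ) (big : Finset κ) (P Y : Equiv.Perm V)
    (hP : ∀ D ∈ big, 1 ≤ fl lab D P) :
    ∑ D ∈ big, (1 - (fl lab D Y : ℤ)) ^ 2 ≤ (Fintype.card V : ℤ) ^ 2 := by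
  classical
  have h1 : ∀ D ∈ big, (1 - (fl lab D Y : ℤ)) ^ 2
      ≤ (((univ.filter fun v => lab v = D).card : ℕ) : ℤ) ^ 2 := by
    intro D hD
    have a1 : (fl lab D Y : ℤ) ≤ ((univ.filter fun v => lab v = D).card : ℕ) := by
      exact_mod_cast fl_le lab D Y
    have a2 : (1 : ℤ) ≤ ((univ.filter fun v => lab v = D).card : ℕ) := by
      exact_mod_cast (hP D hD).trans (fl_le lab D P)
    have a3 : (0 : ℤ) ≤ fl lab D Y := Int.natCast_nonneg _
    apply sq_le_sq'
    · linarith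
    · linarith
  have h2 := Finset.sum_le_sum h1
  refine h2.trans ?_
  have h3 : ∑ D ∈ big, (((univ.filter fun v => lab v = D).card : ℕ) : ℤ) ^ 2
      ≤ (∑ D ∈ big, (((univ.filter fun v => lab v = D).card : ℕ) : ℤ)) ^ 2 := by
    rw [sq (∑ D ∈ big, (((univ.filter fun v => lab v = D).card : ℕ) : ℤ)), Finset.sum_mul]
    apply Finset.sum_le_sum
    intro D hD
    rw [sq]
    apply mul_le_mul_of_nonneg_left _ (Int.natCast_nonneg _)
    exact Finset.single_le_sum (f := fun D => (((univ.filter fun v => lab v = D).card : ℕ) : ℤ))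
      (fun D _ => Int.natCast_nonneg _) hD
  refine h3.trans ?_
  have h4 : ∑ D ∈ big, (((univ.filter fun v => lab v = D).card : ℕ) : ℤ) ≤ Fintype.card V := by
    exact_mod_cast sum_classes lab big
  have h5 : (0 : ℤ) ≤ ∑ D ∈ big, (((univ.filter fun v => lab v = D).card : ℕ) : ℤ) :=
    Finset.sum_nonneg (fun D _ => Int.natCast_nonneg _)
  exact pow_le_pow_left₀ h5 h4 2

variable {lab : V → κ} {big : Finset κ} {g : V → V → ℕ} {R T : ℕ} {mu : ℕ → κ → ℕ}
  {Y : ℕ → Equiv.Perm V}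

/-- One step. -/
theorem Sub.one (h : Sub lab big g R T mu Y) (P : Equiv.Perm V)
    (hP : ∀ D ∈ big, 1 ≤ fl lab D P) {t : ℕ} (ht : t < T) :
    ∑ D ∈ big, (mu (t + 1) D : ℤ) ^ 2 ≤ ∑ D ∈ big, (mu t D : ℤ) ^ 2
      + 2 * R * ((gain g (Y t) : ℤ) - gain g P) + (Fintype.card V : ℤ) ^ 2 := by
  have h1 : ∀ D ∈ big, (mu (t + 1) D : ℤ) ^ 2 ≤ (mu t D : ℤ) ^ 2
      + (2 * mu t D - 2 * (mu t D * fl lab D (Y t))) + (1 - (fl lab D (Y t) : ℤ)) ^ 2 := by
    intro D hD
    rw [h.step t ht D hD]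
    rcases le_total (fl lab D (Y t)) (mu t D + 1) with hle | hle
    · rw [Nat.cast_sub hle]
      push_cast
      nlinarith
    · rw [Nat.sub_eq_zero_of_le hle]
      have : (mu t D : ℤ) ^ 2 + (2 * mu t D - 2 * (mu t D * fl lab D (Y t)))
          + (1 - (fl lab D (Y t) : ℤ)) ^ 2 = ((mu t D : ℤ) + 1 - fl lab D (Y t)) ^ 2 := by ring
      rw [this]
      simpa using sq_nonneg _
  have h2 := Finset.sum_le_sum h1
  rw [Finset.sum_add_distrib, Finset.sum_add_distrib, Finset.sum_sub_distrib,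
    ← Finset.mul_sum, ← Finset.mul_sum] at h2
  have h3 := sum_sq lab big P (Y t) hP
  have h4 := h.opt t ht P
  rw [sum_wt, sum_wt] at h4
  have h5 : (R : ℤ) * gain g P + ∑ D ∈ big, (mu t D : ℤ) * fl lab D P
      ≤ R * gain g (Y t) + ∑ D ∈ big, (mu t D : ℤ) * fl lab D (Y t) := by
    exact_mod_cast h4
  have h6 : ∑ D ∈ big, (mu t D : ℤ) ≤ ∑ D ∈ big, (mu t D : ℤ) * fl lab D P := by
    apply Finset.sum_le_sum
    intro D hD
    have a1 : (1 : ℤ) ≤ fl lab D P := by exact_mod_cast hP D hD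
    have a2 : (0 : ℤ) ≤ mu t D := Int.natCast_nonneg _
    nlinarith
  linarith

/-- Summation of the steps. -/
theorem Sub.tot (h : Sub lab big g R T mu Y) (P : Equiv.Perm V)
    (hP : ∀ D ∈ big, 1 ≤ fl lab D P) :
    ∑ D ∈ big, (mu T D : ℤ) ^ 2 ≤
      2 * R * (∑ t ∈ range T, (gain g (Y t) : ℤ) - T * gain g P)
        + T * (Fintype.card V : ℤ) ^ 2 := by
  have key : ∀ s ≤ T, ∑ D ∈ big, (mu s D : ℤ) ^ 2 ≤
      2 * R * (∑ t ∈ range s, (gain g (Y t) : ℤ) - s * gain g P)
        + s * (Fintype.card V : ℤ) ^ 2 := by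
    intro s
    induction s with
    | zero =>
        intro _
        have : ∑ D ∈ big, (mu 0 D : ℤ) ^ 2 = 0 := by
          apply Finset.sum_eq_zero
          intro D hD
          rw [h.zero D hD]; simp
        rw [this]
        simp
    | succ s ih =>
        intro hs
        have h1 := h.one P hP (Nat.lt_of_succ_le hs)
        have h2 := ih (Nat.le_of_succ_le hs)
        rw [Finset.sum_range_succ]
        push_cast
        linarith
  exact key T le_rfl

/-- (i) The average gain. -/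
theorem Sub.gain_avg (h : Sub lab big g R T mu Y) (P : Equiv.Perm V)
    (hP : ∀ D ∈ big, 1 ≤ fl lab D P) :
    2 * R * (T * gain g P) ≤
      2 * R * ∑ t ∈ range T, gain g (Y t) + T * Fintype.card V ^ 2 := by
  have h1 := h.tot P hP
  have h2 : (0 : ℤ) ≤ ∑ D ∈ big, (mu T D : ℤ) ^ 2 := Finset.sum_nonneg (fun D _ => sq_nonneg _)
  have h3 : (2 * R * (T * gain g P) : ℤ) ≤
      2 * R * ∑ t ∈ range T, (gain g (Y t) : ℤ) + T * (Fintype.card V : ℤ) ^ 2 := by linarith
  exact_mod_cast h3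

theorem Sub.mu_ge (h : Sub lab big g R T mu Y) {D : κ} (hD : D ∈ big) :
    T ≤ mu T D + ∑ t ∈ range T, fl lab D (Y t) := by
  have key : ∀ s ≤ T, s ≤ mu s D + ∑ t ∈ range s, fl lab D (Y t) := by
    intro s
    induction s with
    | zero => intro _; simp
    | succ s ih =>
        intro hs
        have h1 := h.step s (Nat.lt_of_succ_le hs) D hD
        have h2 := ih (Nat.le_of_succ_le hs)
        rw [Finset.sum_range_succ, h1]
        omega
  exact key T le_rfl

/-- The multipliers are small. -/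
theorem Sub.mu_le (h : Sub lab big g R T mu Y) {D : κ} (hD : D ∈ big) {t : ℕ} (ht : t ≤ T) :
    mu t D ≤ t := by
  induction t with
  | zero => rw [h.zero D hD]
  | succ s ih =>
      have h1 := h.step s (Nat.lt_of_succ_le ht) D hD
      have h2 := ih (Nat.le_of_succ_le ht)
      omega

theorem sum_fl_le (D : κ) (T : ℕ) (Y : ℕ → Equiv.Perm V) :
    ∑ t ∈ range T, fl lab D (Y t) ≤ T * Fintype.card V := by
  have h1 : ∀ t ∈ range T, fl lab D (Y t) ≤ Fintype.card V := by
    intro t _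
    exact (Finset.card_le_univ _)
  refine (Finset.sum_le_sum h1).trans ?_
  simp

/-- (ii) The average outflow. -/
theorem Sub.fl_avg (h : Sub lab big g R T mu Y) (P : Equiv.Perm V)
    (hP : ∀ D ∈ big, 1 ≤ fl lab D P) {B q : ℕ}
    (hB : ∀ t < T, gain g (Y t) ≤ gain g P + B)
    (hT : q ^ 2 * (2 * R * B + Fintype.card V ^ 2) ≤ T) {D : κ} (hD : D ∈ big) :
    q * T ≤ q * ∑ t ∈ range T, fl lab D (Y t) + T := by
  have h1 := h.tot P hP
  have h2 : (mu T D : ℤ) ^ 2 ≤ ∑ D ∈ big, (mu T D : ℤ) ^ 2 :=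
    Finset.single_le_sum (f := fun D => (mu T D : ℤ) ^ 2) (fun D _ => sq_nonneg _) hD
  have h3 : ∑ t ∈ range T, (gain g (Y t) : ℤ) ≤ T * (gain g P + B) := by
    have : ∀ t ∈ range T, (gain g (Y t) : ℤ) ≤ gain g P + B := by
      intro t ht
      exact_mod_cast hB t (Finset.mem_range.mp ht)
    refine (Finset.sum_le_sum this).trans ?_
    simp
  have h4 : (mu T D : ℤ) ^ 2 ≤ T * (2 * R * B + (Fintype.card V : ℤ) ^ 2) := by
    have a1 : (2 : ℤ) * R * (∑ t ∈ range T, (gain g (Y t) : ℤ) - T * gain g P)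
        ≤ 2 * R * (T * B) := by
      apply mul_le_mul_of_nonneg_left
      · linarith
      · positivity
    linarith
  have h5 : ((q : ℤ) * mu T D) ^ 2 ≤ (T : ℤ) ^ 2 := by
    have a1 : (q : ℤ) ^ 2 * (2 * R * B + (Fintype.card V : ℤ) ^ 2) ≤ T := by exact_mod_cast hT
    have a2 : (0 : ℤ) ≤ T := Int.natCast_nonneg _
    have a3 : (0 : ℤ) ≤ (q : ℤ) ^ 2 := sq_nonneg _
    calc ((q : ℤ) * mu T D) ^ 2 = (q : ℤ) ^ 2 * (mu T D : ℤ) ^ 2 := by ring
      _ ≤ (q : ℤ) ^ 2 * (T * (2 * R * B + (Fintype.card V : ℤ) ^ 2)) :=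
          mul_le_mul_of_nonneg_left h4 a3
      _ = T * ((q : ℤ) ^ 2 * (2 * R * B + (Fintype.card V : ℤ) ^ 2)) := by ring
      _ ≤ T * T := mul_le_mul_of_nonneg_left a1 a2
      _ = (T : ℤ) ^ 2 := by ring
  have h6 : q * mu T D ≤ T := by
    have := abs_le_of_sq_le_sq h5 (Int.natCast_nonneg T)
    have h7 : (q : ℤ) * mu T D ≤ T := (le_abs_self _).trans this
    exact_mod_cast h7
  have h8 := h.mu_ge hD
  calc q * T ≤ q * (mu T D + ∑ t ∈ range T, fl lab D (Y t)) := Nat.mul_le_mul_left _ h8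
    _ = q * ∑ t ∈ range T, fl lab D (Y t) + q * mu T D := by ring
    _ ≤ q * ∑ t ∈ range T, fl lab D (Y t) + T := Nat.add_le_add_left h6 _

end Vale.Agent.P333.H212
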